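import Vale.Agent.P091.CH.Light

/-!
# P_LIGHT implies P_LIGHTN (helper66)
-/

open Finset

namespace Vale.Agent.P091.CH.H66

open Vale.Agent.P091.CH

open Classical in
/-- all admissible tiles -/
noncomputable def allT (K : ℕ) : Finset Tile :=
  ((range (K + 1) ×ˢ range (2 ^ K) ×ˢ Finset.Ico (0:ℤ) (2 ^ K)).image
    (fun p => (⟨p.1, p.2.1, p.2.2⟩ : Tile))).filter (fun s => s.Ok K)

theorem mem_allT {K : ℕ} {s : Tile} : s ∈ allT K ↔ s.Ok K := by
  classical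
  unfold allT
  rw [mem_filter]
  constructor
  · exact fun h => h.2
  · intro h
    refine ⟨?_, h⟩
    rw [mem_image]
    obtain ⟨h1, h2, h3, h4⟩ := h
    have hk : s.k ≤ K := by omega
    have h5 : (1:ℤ) ≤ 2 ^ s.k := one_le_pow₀ (by norm_num)
    have h6 : (1:ℤ) ≤ 2 ^ K := one_le_pow₀ (by norm_num)
    have hl0 : 0 < s.l := by
      by_contra hc
      push Not at hc
      have : s.l * 2 ^ s.k ≤ 0 := mul_nonpos_of_nonpos_of_nonneg hc (by positivity)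
      linarith
    have hl1 : s.l < 2 ^ K := by
      have : s.l + 1 ≤ (s.l + 1) * 2 ^ s.k := le_mul_of_one_le_right (by omega) h5
      linarith
    refine ⟨(s.k, s.j, s.l), ?_, rfl⟩
    simp only [mem_product, mem_range, mem_Ico]
    exact ⟨by omega, lt_of_lt_of_le h2 (Nat.pow_le_pow_right (by norm_num) hk), hl0.le, hl1⟩

theorem tl_ok {K k j : ℕ} {N : ℤ} (hk : k + 6 ≤ K) (hj : j < 2 ^ k)
    (hN1 : 2 ^ K ≤ 4 * N) (hN2 : 4 * N < 3 * 2 ^ K) : (tl k j N).Ok K := by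
  refine ⟨hk, hj, ?_, ?_⟩
  · show (2:ℤ) ^ K ≤ 4 * (N / 2 ^ k * 2 ^ k)
    have e : (2:ℤ) ^ K = 4 * (2 ^ (K - 2 - k) * 2 ^ k) := by
      rw [← pow_add, show (4:ℤ) = 2 ^ 2 by norm_num, ← pow_add]
      congr 1
      omega
    have h1 : (2:ℤ) ^ (K - 2 - k) * 2 ^ k ≤ N := by omega
    have h2 : (2:ℤ) ^ (K - 2 - k) ≤ N / 2 ^ k := by
      rw [Int.le_ediv_iff_mul_le (by positivity)]
      exact h1
    rw [e]
    have := mul_le_mul_of_nonneg_right h2 (show (0:ℤ) ≤ 2 ^ k by positivity)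
    linarith
  · show 4 * ((N / 2 ^ k + 1) * 2 ^ k) ≤ 3 * (2:ℤ) ^ K
    have e : (2:ℤ) ^ K = 4 * (2 ^ (K - 2 - k) * 2 ^ k) := by
      rw [← pow_add, show (4:ℤ) = 2 ^ 2 by norm_num, ← pow_add]
      congr 1
      omega
    have h1 : N < (3 * (2:ℤ) ^ (K - 2 - k)) * 2 ^ k := by
      rw [e] at hN2
      have : (3 * (2:ℤ) ^ (K - 2 - k)) * 2 ^ k = 3 * (2 ^ (K - 2 - k) * 2 ^ k) := by ring
      rw [this]
      omega
    have h2 : N / 2 ^ k < 3 * (2:ℤ) ^ (K - 2 - k) := by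
      rw [Int.ediv_lt_iff_lt_mul (by positivity)]
      exact h1
    have h3 : N / 2 ^ k + 1 ≤ 3 * (2:ℤ) ^ (K - 2 - k) := by omega
    rw [e]
    have := mul_le_mul_of_nonneg_right h3 (show (0:ℤ) ≤ 2 ^ k by positivity)
    linarith

/-- regrouping at one point -/
theorem regroup {K : ℕ} (F : Tile → ℂ) (N : X K → ℤ) (κ : X K → ℕ) (x : X K)
    (hN : 2 ^ K ≤ 4 * N x ∧ 4 * N x < 3 * 2 ^ K) (hκ : κ x + 6 ≤ K) :
    ∑ k ∈ range (κ x), ∑ j ∈ range (2 ^ k), F (tl k j (N x))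
      = ∑ s ∈ allT K, F s * (if N x / 2 ^ s.k = s.l ∧ s.k < κ x then 1 else 0) := by
  classical
  have h1 : ∑ s ∈ allT K, F s * (if N x / 2 ^ s.k = s.l ∧ s.k < κ x then 1 else 0)
      = ∑ s ∈ (allT K).filter (fun s => N x / 2 ^ s.k = s.l ∧ s.k < κ x), F s := by
    rw [sum_filter]
    refine sum_congr rfl fun s _ => ?_
    by_cases h : N x / 2 ^ s.k = s.l ∧ s.k < κ x
    · rw [if_pos h, if_pos h, mul_one]
    · rw [if_neg h, if_neg h, mul_zero]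
  rw [h1, Finset.sum_sigma']
  refine Finset.sum_nbij' (fun p => tl p.1 p.2 (N x)) (fun s => ⟨s.k, s.j⟩) ?_ ?_ ?_ ?_ ?_
  · rintro ⟨k, j⟩ hp
    simp only [mem_sigma, mem_range] at hp
    rw [mem_filter, mem_allT]
    have hk : k < κ x := hp.1
    have hk6 : k + 6 ≤ K := by omega
    exact ⟨tl_ok hk6 hp.2 hN.1 hN.2, rfl, hp.1⟩
  · intro s hs
    rw [mem_filter, mem_allT] at hs
    simp only [mem_sigma, mem_range]
    exact ⟨hs.2.2, hs.1.2.1⟩
  · rintro ⟨k, j⟩ _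
    rfl
  · intro s hs
    rw [mem_filter, mem_allT] at hs
    ext
    · rfl
    · rfl
    · exact hs.2.1
  · rintro ⟨k, j⟩ _
    rfl

theorem lightN_of (h : P_LIGHT) : P_LIGHTN := by
  intro B
  obtain ⟨C, hC⟩ := h B
  refine ⟨C, ?_⟩
  intro ψ ψt hψ hψt K hK f g N κ E δ M hδ hδ1 hf hg hN hκ hst
  have key : aveC (fun x => g x * ∑ r ∈ range 8, ∑ k ∈ range (κ x), ∑ j ∈ range (2 ^ k),
          (8:ℂ)⁻¹ * (tl k j (N x)).len * co ψ r f (tl k j (N x)) * pk ψt r (tl k j (N x)) x)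
      = ∑ r ∈ range 8, ∑ s ∈ allT K, (8:ℂ)⁻¹ * s.len * co ψ r f s * bcoT ψt r g N κ s := by
    have e1 : ∀ x : X K, g x * ∑ r ∈ range 8, ∑ k ∈ range (κ x), ∑ j ∈ range (2 ^ k),
          (8:ℂ)⁻¹ * (tl k j (N x)).len * co ψ r f (tl k j (N x)) * pk ψt r (tl k j (N x)) x
        = ∑ r ∈ range 8, ∑ s ∈ allT K, (8:ℂ)⁻¹ * s.len * co ψ r f s *
            (g x * pk ψt r s x * (if N x / 2 ^ s.k = s.l ∧ s.k < κ x then 1 else 0)) := by
      intro x
      rw [mul_sum]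
      refine sum_congr rfl fun r _ => ?_
      rw [regroup (fun s => (8:ℂ)⁻¹ * s.len * co ψ r f s * pk ψt r s x) N κ x (hN x) (hκ x),
        mul_sum]
      refine sum_congr rfl fun s _ => ?_
      ring
    unfold aveC
    simp_rw [e1]
    rw [sum_comm, sum_div]
    refine sum_congr rfl fun r _ => ?_
    rw [sum_comm, sum_div]
    refine sum_congr rfl fun s _ => ?_
    unfold bcoT aveC
    rw [← mul_sum, mul_div_assoc]
  rw [key]
  have h8 : ‖(8:ℂ)⁻¹‖ = 8⁻¹ := by norm_num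
  calc ‖∑ r ∈ range 8, ∑ s ∈ allT K, (8:ℂ)⁻¹ * s.len * co ψ r f s * bcoT ψt r g N κ s‖
      ≤ ∑ r ∈ range 8, ∑ s ∈ allT K, ‖(8:ℂ)⁻¹ * s.len * co ψ r f s * bcoT ψt r g N κ s‖ := by
        refine (norm_sum_le _ _).trans (sum_le_sum fun r _ => norm_sum_le _ _)
    _ = ∑ r ∈ range 8, 8⁻¹ * ∑ s ∈ allT K, s.len * ‖co ψ r f s‖ * ‖bcoT ψt r g N κ s‖ := by
        refine sum_congr rfl fun r _ => ?_
        rw [mul_sum]
        refine sum_congr rfl fun s _ => ?_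
        have hl : ‖((s.len : ℝ) : ℂ)‖ = s.len := by
          rw [Complex.norm_real, Real.norm_eq_abs, abs_of_nonneg]
          unfold Tile.len
          positivity
        rw [norm_mul, norm_mul, norm_mul, h8, hl]
        ring
    _ ≤ ∑ r ∈ range 8, 8⁻¹ * (C * δ ^ (1/4 : ℝ) * (√(ave (fun x => ‖f x‖ ^ 2)) + M)) := by
        refine sum_le_sum fun r hr => ?_
        refine mul_le_mul_of_nonneg_left ?_ (by norm_num)
        exact hC ψ ψt hψ hψt K r (mem_range.1 hr) f g N κ E (allT K) δ M hδ hδ1 hf hg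
          (fun s hs => mem_allT.1 hs) hst
    _ = C * δ ^ (1/4 : ℝ) * (√(ave (fun x => ‖f x‖ ^ 2)) + M) := by
        rw [sum_const, card_range]
        simp only [nsmul_eq_mul]
        push_cast
        ring

end Vale.Agent.P091.CH.H66
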