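import Vale.Agent.P091.CH.H66.LightN
import Vale.Agent.P091.CH.H645.ModT
import Vale.Agent.P091.CH.H539.Tree
import Vale.Agent.P091.CH.H106.En2
import Vale.Agent.P091.CH.H43.Ms
import Vale.Agent.P091.CH.H43.Msu
import Vale.Agent.P091.CH.H350.Far
import Vale.Agent.P091.CH.H69.Light
import Vale.Agent.P091.CH.H69.Geo

/-!
# P091: the light part, unconditional (helper66)

All the rows of the Carleson block are put together.
-/

namespace Vale.Agent.P091.CH.H66

theorem ms0 : P_MS0 := H43.p_MS0_of H69.pGEO1

theorem modt : P_MODT := H645.modT H106.p_EN H43.p_MS H539.trt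

/-- LIGHT, unconditional -/
theorem light : P_LIGHT := H69.pLIGHT_of modt H43.p_MSU ms0 H350.far

/-- LIGHT for the truncated tile sum, unconditional -/
theorem lightN : P_LIGHTN := lightN_of light

end Vale.Agent.P091.CH.H66
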